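import Vale.Agent.P032.H184.Z.Cnf
import Vale.Agent.P032.H184.Glue

namespace Vale.Agent.P032.H184.Z
open Vale.Agent.P032.H859.Rup Vale.Agent.P032.H184

theorem a4_10 : allb tst cb4_10 = true := by decide +kernel

end Vale.Agent.P032.H184.Z
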